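import Vale.Agent.P245.QC.Iface

/-! P245, row FIN (quasi-concave log-Sobolev inequality), third seat (helper216) -/

open MeasureTheory Set Filter Topology
open scoped ENNReal ContDiff

namespace Vale.Agent.P245.QC.H216

open Vale.Agent.P245 Vale.Agent.P245.QC

/-- continuous compactly supported functions are integrable for a probability measure -/
theorem int_cc {n : ℕ} (μ : Measure (EuclideanSpace ℝ (Fin n))) [IsProbabilityMeasure μ]
    {g : EuclideanSpace ℝ (Fin n) → ℝ} (hg : Continuous g) (hc : HasCompactSupport g) :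
    Integrable g μ := hg.integrable_of_hasCompactSupport hc

theorem ent_le {F L c : ℝ} (hF : 0 ≤ F) (hc : 0 < c) :
    L - F * Real.log F ≤ L - F * Real.log c - F + c := by
  rcases hF.eq_or_lt with h | h
  · rw [← h]; simp; exact hc.le
  · have h1 : Real.log (c / F) ≤ c / F - 1 := Real.log_le_sub_one_of_pos (by positivity)
    rw [Real.log_div hc.ne' h.ne'] at h1
    have h2 : F * (Real.log c - Real.log F) ≤ F * (c / F - 1) :=
      mul_le_mul_of_nonneg_left h1 h.le
    have h3 : F * (c / F - 1) = c - F := by field_simp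
    nlinarith

theorem fin (hS : StSup) (hM : StMed) (hP : StPW) (hE : StEB) : StFin := by
  intro n μ _ κ r₀ P hκ hr₀ hP0 hiso hpo f hf hfc hf0 hq
  have hfcont : Continuous f := hf.continuous
  obtain ⟨M, hM0, hMt, hMv⟩ := hM n μ f hfcont hfc hf0
  set D : ℝ := ∫ x, ‖gradient f x‖ ^ 2 ∂μ with hD
  have hDn : 0 ≤ D := integral_nonneg fun x => by positivity
  have hpo1 := hpo f hf hfc
  rw [← hD] at hpo1
  have hV : ∫ x, (f x - M) ^ 2 ∂μ ≤ 3 * (P * D) := hMv.trans (by linarith)
  -- integrability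
  have hf2c : Continuous fun x => f x ^ 2 := hfcont.pow 2
  have hf2s : HasCompactSupport fun x => f x ^ 2 := by
    have := hfc.comp_left (g := fun u : ℝ => u ^ 2) (by norm_num)
    exact this
  have hi2 : Integrable (fun x => f x ^ 2) μ := int_cc μ hf2c hf2s
  have hi1 : Integrable f μ := int_cc μ hfcont hfc
  have hilog : Integrable (fun x => f x ^ 2 * Real.log (f x ^ 2)) μ := by
    apply int_cc μ
    · exact Real.continuous_mul_log.comp hf2c
    · exact hf2s.comp_left (g := fun u : ℝ => u * Real.log u) (by simp)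
  have hiM : Integrable (fun x => (f x - M) ^ 2) μ := by
    have : (fun x => (f x - M) ^ 2) = fun x => f x ^ 2 - 2 * M * f x + M ^ 2 := by
      funext x; ring
    rw [this]
    exact (hi2.sub (hi1.const_mul _)).add (integrable_const _)
  have hg2c : Continuous fun x => max (f x - M) 0 ^ 2 :=
    ((hfcont.sub continuous_const).max continuous_const).pow 2
  have hg2s : HasCompactSupport fun x => max (f x - M) 0 ^ 2 := by
    exact hfc.comp_left (g := fun u : ℝ => max (u - M) 0 ^ 2) (by simp [hM0])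
  have hig : Integrable (fun x => max (f x - M) 0 ^ 2) μ := int_cc μ hg2c hg2s
  have key : ∀ ε : ℝ, 0 < ε → Entropy μ (fun x => f x ^ 2) ≤
      (60 * P + 640 * κ ^ 2) * D + 10 * ε := by
    intro ε hε
    set G : ℝ := 3 * (P * D) + ε with hG
    have hPD : 0 ≤ P * D := mul_nonneg hP0 hDn
    have hG0 : 0 < G := by rw [hG]; positivity
    have hgG : ∫ x, max (f x - M) 0 ^ 2 ∂μ ≤ G := by
      have h1 : ∫ x, max (f x - M) 0 ^ 2 ∂μ ≤ ∫ x, (f x - M) ^ 2 ∂μ := by
        refine integral_mono hig hiM fun x => ?_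
        show max (f x - M) 0 ^ 2 ≤ (f x - M) ^ 2
        rcases le_total (f x - M) 0 with h | h
        · rw [max_eq_right h, zero_pow two_ne_zero]; exact sq_nonneg _
        · rw [max_eq_left h]
      linarith
    have hgl : Continuous fun x => max (f x - M) 0 ^ 2 *
        Real.log (Real.exp 1 + max (f x - M) 0 ^ 2 / G) := by
      refine hg2c.mul (Continuous.log (continuous_const.add (hg2c.div_const _)) fun x => ?_)
      have : (0 : ℝ) < Real.exp 1 := Real.exp_pos 1
      positivity
    have hgls : HasCompactSupport fun x => max (f x - M) 0 ^ 2 *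
        Real.log (Real.exp 1 + max (f x - M) 0 ^ 2 / G) := by
      exact hg2s.comp_left (g := fun u : ℝ => u * Real.log (Real.exp 1 + u / G)) (by simp)
    have higl := int_cc μ hgl hgls
    have hEB := hE n μ κ hκ f hf hfc hf0 M hM0 hMt
      (fun γ w hγ hw hγ0 hw0 hwM hww =>
        hS n μ κ r₀ hκ hr₀ hiso f hf hfc hf0 hq M hM0 hMt γ w hγ hw hγ0 hw0 hwM hww) G hG0 hgG
    rw [← hD] at hEB
    have hc : 0 < M ^ 2 + G := by positivity
    have hint : ∫ x, (f x ^ 2 * Real.log (f x ^ 2) - f x ^ 2 * Real.log (M ^ 2 + G) - f x ^ 2 +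
        (M ^ 2 + G)) ∂μ ≤ ∫ x, (10 * (f x - M) ^ 2 + 10 * G +
        10 * (max (f x - M) 0 ^ 2 * Real.log (Real.exp 1 + max (f x - M) 0 ^ 2 / G))) ∂μ := by
      refine integral_mono ?_ ?_ fun x => hP M G (f x) hM0 hG0 (hf0 x)
      · exact ((hilog.sub (hi2.mul_const _)).sub hi2).add (integrable_const _)
      · exact ((hiM.const_mul _).add (integrable_const _)).add (higl.const_mul _)
    have hL : ∫ x, (f x ^ 2 * Real.log (f x ^ 2) - f x ^ 2 * Real.log (M ^ 2 + G) - f x ^ 2 +
        (M ^ 2 + G)) ∂μ = ∫ x, f x ^ 2 * Real.log (f x ^ 2) ∂μ -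
          (∫ x, f x ^ 2 ∂μ) * Real.log (M ^ 2 + G) - ∫ x, f x ^ 2 ∂μ + (M ^ 2 + G) := by
      have a1 : Integrable (fun x => f x ^ 2 * Real.log (M ^ 2 + G)) μ := hi2.mul_const _
      have a2 : Integrable (fun x => f x ^ 2 * Real.log (f x ^ 2) -
        f x ^ 2 * Real.log (M ^ 2 + G)) μ := hilog.sub a1
      have a3 : Integrable (fun x => f x ^ 2 * Real.log (f x ^ 2) -
        f x ^ 2 * Real.log (M ^ 2 + G) - f x ^ 2) μ := a2.sub hi2
      rw [integral_add a3 (integrable_const _), integral_sub a2 hi2, integral_sub hilog a1,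
        integral_mul_const]
      simp
    have hR : ∫ x, (10 * (f x - M) ^ 2 + 10 * G +
        10 * (max (f x - M) 0 ^ 2 * Real.log (Real.exp 1 + max (f x - M) 0 ^ 2 / G))) ∂μ =
        10 * ∫ x, (f x - M) ^ 2 ∂μ + 10 * G + 10 * ∫ x, max (f x - M) 0 ^ 2 *
          Real.log (Real.exp 1 + max (f x - M) 0 ^ 2 / G) ∂μ := by
      have a1 : Integrable (fun x => 10 * (f x - M) ^ 2) μ := hiM.const_mul _
      have a2 : Integrable (fun x => 10 * (f x - M) ^ 2 + 10 * G) μ :=
        a1.add (integrable_const _)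
      rw [integral_add a2 (higl.const_mul _), integral_add a1 (integrable_const _),
        integral_const]
      simp only [probReal_univ, smul_eq_mul, one_mul, integral_const_mul]
    rw [hL, hR] at hint
    have hent : Entropy μ (fun x => f x ^ 2) ≤ ∫ x, f x ^ 2 * Real.log (f x ^ 2) ∂μ -
          (∫ x, f x ^ 2 ∂μ) * Real.log (M ^ 2 + G) - ∫ x, f x ^ 2 ∂μ + (M ^ 2 + G) :=
      ent_le (integral_nonneg fun x => by positivity) hc
    have hGv : G = 3 * (P * D) + ε := hG
    nlinarith
  refine le_of_forall_pos_le_add fun ε hε => ?_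
  have := key (ε / 10) (by positivity)
  linarith

end Vale.Agent.P245.QC.H216
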